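import Crest.Agent.Helper26.SW.Pairs
import Crest.Agent.Helper65.Switch.Classes

/-!
# S0453: the assembly on the realizations (WP-ASM, insurance copy; helper7)

Instantiation of helper26's `gap_pairs` (Caputo identity + spectral conclusion, pairs/triples of
vertices) at `Om = realizations d`, key `κ U = offU U` (helper65's shared model layer), followed
by helper65's `result_of_switchEnergy`.

* `cavg_offU`           : helper26's keyed class average at the key `offU U` on `realizations d`
                          is helper65's `Qavg d U`.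
* `IsSwitch.exists_pair_offU` : a switch stays inside the `~_U`-class of one of its diagonals `U`.
* `const_of_pair_classes` : (T3) a function constant on all pair classes is constant on `Ω`.
* `sum_sq_sub_Qavg`     : `∑_Ω (f - Q_U f)² = ∑_Ω f · R_U f`.
* `gap_realizations`    : (3B-Om) + (DP-Om) ⟹ `N ∑ f² - (∑ f)² ≤ N ∑_{pairs U} ∑_Ω f · R_U f`.
* `result_of_interfaces`: (3B-Om) + (DP-Om) + (T2-Om) ⟹ the frozen statement S0453.

The three hypotheses are exactly the shapes of record:
(3B-Om) = three-term form on `Qavg` (helper78 / helper68, = `h3` of helper26's `gap_pairs`),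
(DP-Om) = conclusion of helper10's `dp_pairs_offU`,
(T2-Om) = conclusion of helper16's `t2Om_of_model`.
-/

set_option autoImplicit false

namespace Crest.Agent.Helper7.S0453

open Finset Crest.SwitchChain Crest.Agent.Helper65.Switch

variable {n : ℕ}

/-- helper26's keyed class average at the key `offU U` on `realizations d` is helper65's
`Qavg d U`. -/
lemma cavg_offU (d : Fin n → ℕ) (U : Finset (Fin n)) (f : Finset (Edge n) → ℝ)
    (G : Finset (Edge n)) :
    Crest.Agent.Helper26.SW.cavg (realizations d) (offU U) f G = Qavg d U f G := by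
  rw [Crest.Agent.Helper26.SW.cavg_apply, Qavg_def]
  rfl

/-- A switch stays inside the `~_U`-class of one of its diagonals. -/
lemma IsSwitch.exists_pair_offU {G G' : Finset (Edge n)} (h : IsSwitch G G') :
    ∃ U : Finset (Fin n), U.card = 2 ∧ offU U G' = offU U G := by
  obtain ⟨p, q, r, s, hpq, hpr, hps, hqr, hqs, hrs, h1, h2, rfl⟩ := h.exists_pm2
  refine ⟨{p, s}, Finset.card_pair hps, ?_⟩
  ext e
  obtain ⟨x, y, hxy, rfl⟩ := exists_eq_mkE e
  rw [mkE_mem_offU, mkE_mem_offU, mem_switch]
  simp only [Finset.mem_insert, Finset.mem_singleton, mkE_eq_iff, not_or, Ne]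
  constructor
  · rintro ⟨hm, hx, hy⟩
    refine ⟨?_, hx, hy⟩
    rcases hm with ⟨hm, -, -⟩ | hm | hm
    · exact hm
    · exfalso; tauto
    · exfalso; tauto
  · rintro ⟨hm, hx, hy⟩
    refine ⟨Or.inl ⟨hm, ?_, ?_⟩, hx, hy⟩
    · tauto
    · tauto

/-- **(T3) on the realizations**: a function which is constant on every pair class is constant
on the realizations (switch connectivity, helper65). -/
lemma const_of_pair_classes (d : Fin n → ℕ) (f : Finset (Edge n) → ℝ)
    (hf : ∀ U : Finset (Fin n), U.card = 2 → ∀ G ∈ realizations d, ∀ G' ∈ realizations d,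
      offU U G = offU U G' → f G = f G') :
    ∀ G ∈ realizations d, ∀ G' ∈ realizations d, f G = f G' := by
  refine const_of_switch_invariant f ?_
  intro G hG G' hsw
  obtain ⟨U, hU, hoff⟩ := IsSwitch.exists_pair_offU hsw
  exact hf U hU G hG G' (hsw.mem_realizations hG) hoff.symm

/-- `Q_U f ⟂ R_U f` on the realizations. -/
lemma sum_Qavg_mul_Rop (d : Fin n → ℕ) (U : Finset (Fin n)) (f : Finset (Edge n) → ℝ) :
    ∑ G ∈ realizations d, Qavg d U f G * Rop d U f G = 0 := by
  classical
  rw [← Finset.sum_fiberwise_of_maps_to (g := offU U) (t := (realizations d).image (offU U))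
    (fun x hx => Finset.mem_image_of_mem _ hx)]
  refine Finset.sum_eq_zero fun κ hκ => ?_
  obtain ⟨G0, hG0, rfl⟩ := Finset.mem_image.1 hκ
  have hset : (realizations d).filter (fun G => offU U G = offU U G0) = cls d U G0 := by
    ext G
    simp only [Finset.mem_filter, mem_cls]
  rw [hset]
  have hterm : ∀ G ∈ cls d U G0, Qavg d U f G * Rop d U f G
      = Qavg d U f G0 * (f G - Qavg d U f G0) := by
    intro G hG
    rw [Rop_def, Qavg_eq_of_mem f hG]
  rw [Finset.sum_congr rfl hterm, ← Finset.mul_sum, Finset.sum_sub_distrib, Finset.sum_const,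
    nsmul_eq_mul, Qavg_def]
  have hpos : (0 : ℝ) < ((cls d U G0).card : ℝ) := by
    exact_mod_cast Finset.card_pos.2 ⟨G0, mem_cls_self hG0⟩
  field_simp
  ring

/-- `∑_Ω (f - Q_U f)² = ∑_Ω f · R_U f`. -/
lemma sum_sq_sub_Qavg (d : Fin n → ℕ) (U : Finset (Fin n)) (f : Finset (Edge n) → ℝ) :
    ∑ G ∈ realizations d, (f G - Qavg d U f G) ^ 2 = ∑ G ∈ realizations d, f G * Rop d U f G := by
  have h := sum_Qavg_mul_Rop d U f
  have e : ∀ G ∈ realizations d, (f G - Qavg d U f G) ^ 2
      = f G * Rop d U f G - Qavg d U f G * Rop d U f G := by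
    intro G _
    rw [Rop_def]
    ring
  rw [Finset.sum_congr rfl e, Finset.sum_sub_distrib, h, sub_zero]

/-- Sum over the 2-subsets as a subtype = sum over `powersetCard 2`. -/
lemma sum_pairs_subtype {M : Type*} [AddCommMonoid M] (F : Finset (Fin n) → M) :
    ∑ p : {s : Finset (Fin n) // s.card = 2}, F p.1
      = ∑ U ∈ (univ : Finset (Fin n)).powersetCard 2, F U := by
  symm
  refine Finset.sum_subtype _ (fun U => ?_) F
  simp [Finset.mem_powersetCard]

/-- **WP-ASM, first half**: the three-body bound (3B-Om) and the disjoint-pair positivity (DP-Om)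
on the realizations give `N ∑ f² - (∑ f)² ≤ N ∑_{pairs U} ∑_{G ∈ Ω} f G · R_U f G`. -/
theorem gap_realizations (d : Fin n → ℕ)
    (h3 : ∀ a b c : Fin n, a ≠ b → a ≠ c → b ≠ c → ∀ f : Finset (Edge n) → ℝ,
      ∑ G ∈ realizations d, f G * (Qavg d {a, b} f G + Qavg d {a, c} f G + Qavg d {b, c} f G)
        ≤ 2 * ∑ G ∈ realizations d, f G ^ 2
          + ∑ G ∈ realizations d, f G * Qavg d {a, b, c} f G)
    (h2 : ∀ f : Finset (Edge n) → ℝ, 0 ≤ ∑ p : {s : Finset (Fin n) // s.card = 2},
        ∑ p' ∈ univ.filter (fun p' : {s : Finset (Fin n) // s.card = 2} =>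
            p' ≠ p ∧ Disjoint (p : Finset (Fin n)) (p' : Finset (Fin n))),
          ∑ G ∈ realizations d, (f G - Qavg d p.1 f G) * (f G - Qavg d p'.1 f G))
    (f : Finset (Edge n) → ℝ) :
    ((realizations d).card : ℝ) * (∑ G ∈ realizations d, f G ^ 2)
        - (∑ G ∈ realizations d, f G) ^ 2
      ≤ ((realizations d).card : ℝ) *
          ∑ U ∈ (univ : Finset (Fin n)).powersetCard 2,
            ∑ G ∈ realizations d, f G * Rop d U f G := by
  classical
  have key := Crest.Agent.Helper26.SW.gap_pairs (V := Fin n) (realizations d)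
    (fun U => offU U) (fun T => offU T) ?_ ?_ ?_ ?_ f
  · simp only [cavg_offU, sum_sq_sub_Qavg] at key
    rw [sum_pairs_subtype (fun U => ∑ G ∈ realizations d, f G * Rop d U f G)] at key
    exact key
  · intro U T _ _ hUT x _ y _ hxy
    exact offU_mono hUT hxy
  · intro a b c hab hac hbc g
    simp only [cavg_offU]
    exact h3 a b c hab hac hbc g
  · intro g
    simp only [cavg_offU]
    exact h2 g
  · intro g hg
    exact const_of_pair_classes d g hg

/-- **WP-ASM**: the frozen statement S0453 from the three interfaces on the realizations: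
(3B-Om) three-body bound, (DP-Om) disjoint-pair positivity, (T2-Om) Johnson bound. -/
theorem result_of_interfaces (n : ℕ) (hn : 4 ≤ n) (d : Fin n → ℕ)
    (hd : (realizations d).Nonempty)
    (h3 : ∀ a b c : Fin n, a ≠ b → a ≠ c → b ≠ c → ∀ f : Finset (Edge n) → ℝ,
      ∑ G ∈ realizations d, f G * (Qavg d {a, b} f G + Qavg d {a, c} f G + Qavg d {b, c} f G)
        ≤ 2 * ∑ G ∈ realizations d, f G ^ 2
          + ∑ G ∈ realizations d, f G * Qavg d {a, b, c} f G)
    (h2 : ∀ f : Finset (Edge n) → ℝ, 0 ≤ ∑ p : {s : Finset (Fin n) // s.card = 2},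
        ∑ p' ∈ univ.filter (fun p' : {s : Finset (Fin n) // s.card = 2} =>
            p' ≠ p ∧ Disjoint (p : Finset (Fin n)) (p' : Finset (Fin n))),
          ∑ G ∈ realizations d, (f G - Qavg d p.1 f G) * (f G - Qavg d p'.1 f G))
    (hT2 : ∀ f : Finset (Edge n) → ℝ,
      ∑ U ∈ (univ : Finset (Fin n)).powersetCard 2, ∑ G ∈ realizations d, f G * Rop d U f G
        ≤ switchEnergy d f) :
    (∃ t : ℕ, t ≤ 2 * n ^ 8 ∧ ∀ G ∈ realizations d,
        tvDist (fun G' => (kernel n ^ t) G G') (unifOn (realizations d)) ≤ 1 / 4) ∧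
      ∀ f : Finset (Edge n) → ℝ,
        ((realizations d).card : ℝ) * (∑ G ∈ realizations d, f G ^ 2) -
            (∑ G ∈ realizations d, f G) ^ 2 ≤
          24 * (n : ℝ) ^ 2 * (n.choose 4 : ℝ) * (realizations d).card *
            ∑ G ∈ realizations d,
              f G * (f G - ∑ G' ∈ realizations d, kernel n G G' * f G') := by
  refine result_of_switchEnergy n hn d hd 1 ?_ ?_
  · have h4 : (4 : ℝ) ≤ (n : ℝ) := by exact_mod_cast hn
    nlinarith
  · intro f
    have h1 := gap_realizations d h3 h2 f
    have hN : (0 : ℝ) ≤ ((realizations d).card : ℝ) := Nat.cast_nonneg _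
    have h5 := mul_le_mul_of_nonneg_left (hT2 f) hN
    linarith

end Crest.Agent.Helper7.S0453
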