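import Crest.Agent.Helper7.S0453.Asm
import Crest.Agent.Helper10.S0453.DP
import Crest.Agent.Helper16.S0453.T2Om

/-!
# S0453: the assembly with the interfaces of record plugged in (WP-ASM insurance; helper7)

`result_of_wps`: the frozen statement S0453 from exactly the four graph-side interface
statements of record:

* `h3`   (D3, helper78/helper68): the three-body bound on `Qavg`, three-term form;
* `hTPL` (E1 + E2): helper10's `TPLGraph d f` for every `f`;
* `hJ2`  (BJ2): helper10's `J2Graph d f` for every `f`;
* `hB`   (B, helper65/helper63): helper16's `PairClassModel d U` for every 2-set `U`.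

Everything else (Caputo identity, spectral conclusion, (DP) summation, Johnson Poincaré,
(T2-Om), connectivity, kernel/mixing glue) is already on main and is consumed here.
-/

set_option autoImplicit false

namespace Crest.Agent.Helper7.S0453

open Finset Crest.SwitchChain Crest.Agent.Helper65.Switch

/-- **S0453 from the four graph-side interfaces of record.** -/
theorem result_of_wps (n : ℕ) (hn : 4 ≤ n) (d : Fin n → ℕ)
    (hd : (realizations d).Nonempty)
    (h3 : ∀ a b c : Fin n, a ≠ b → a ≠ c → b ≠ c → ∀ f : Finset (Edge n) → ℝ,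
      ∑ G ∈ realizations d, f G * (Qavg d {a, b} f G + Qavg d {a, c} f G + Qavg d {b, c} f G)
        ≤ 2 * ∑ G ∈ realizations d, f G ^ 2
          + ∑ G ∈ realizations d, f G * Qavg d {a, b, c} f G)
    (hTPL : ∀ f : Finset (Edge n) → ℝ, Crest.Agent.Helper10.S0453.TPLGraph d f)
    (hJ2 : ∀ f : Finset (Edge n) → ℝ, Crest.Agent.Helper10.S0453.J2Graph d f)
    (hB : ∀ U ∈ (univ : Finset (Fin n)).powersetCard 2,
      Crest.Agent.Helper16.S0453.PairClassModel d U) :
    (∃ t : ℕ, t ≤ 2 * n ^ 8 ∧ ∀ G ∈ realizations d,
        tvDist (fun G' => (kernel n ^ t) G G') (unifOn (realizations d)) ≤ 1 / 4) ∧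
      ∀ f : Finset (Edge n) → ℝ,
        ((realizations d).card : ℝ) * (∑ G ∈ realizations d, f G ^ 2) -
            (∑ G ∈ realizations d, f G) ^ 2 ≤
          24 * (n : ℝ) ^ 2 * (n.choose 4 : ℝ) * (realizations d).card *
            ∑ G ∈ realizations d,
              f G * (f G - ∑ G' ∈ realizations d, kernel n G G' * f G') :=
  result_of_interfaces n hn d hd h3
    (fun f => Crest.Agent.Helper10.S0453.dp_pairs_offU d f (hTPL f) (hJ2 f))
    (fun f => Crest.Agent.Helper16.S0453.t2Om_of_model hB f)

end Crest.Agent.Helper7.S0453
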